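import Vale.Agent.P310.Main

namespace Vale.Agent.Results.P310.LinearExponent

open Vale.Agent.P310

theorem result : (∃ c : ℝ, 0 < c ∧ ∀ k : ℕ, 2 ≤ k → TimeLB k (c * k)) ∧
    ∃ k₀ : ℕ, ∀ k : ℕ, k₀ ≤ k → TimeLB k ((k / 20 : ℕ) : ℝ) :=
  ⟨timeLB_all, timeLB_large⟩

end Vale.Agent.Results.P310.LinearExponent
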